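import Vale.Agent.P271.B.Final

namespace Vale.Agent.Results.P271.B_full

open Vale.Agent.P271

theorem result (K : Type) [Field K] [Algebra ℂ K] (N n : ℕ) (t : Fin (N + 1) → K) (hn : 1 ≤ n)
    (hK : IsFunctionField t) (hX : IsSmoothOfDim t n) (L : LineBundle t) (hL : L.IsAmple)
    (m : ℕ) (hm : n + 1 ≤ m) :
    L.AdjointFree (KaehlerDifferential.D ℂ K) n m :=
  fujitaB hn hK hX L hL hm

end Vale.Agent.Results.P271.B_full
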